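import Vale.Agent.Lib.P045.D.All
import Vale.Agent.Lib.P045.Top

/-!
Ryser's conjecture for r = 4 and matching number at most 2.
The proof is a checked run of a certificate over a fixed table of lemmas.
-/

namespace Vale.Agent.Results.P045.A_main

/-- Every 4-partite 4-uniform hypergraph (edges are functions from the four parts,
with values in the vertex type `α`; the vertex `(i, v)` is the value `v` in part `i`)
with no three pairwise disjoint edges has a vertex cover of size at most 6. -/
theorem result {α : Type*} (H : Finset (Fin 4 → α))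
    (hν : ∀ a ∈ H, ∀ b ∈ H, ∀ c ∈ H,
      (∀ i, a i ≠ b i) → (∀ i, a i ≠ c i) → (∀ i, b i ≠ c i) → False) :
    ∃ C : Finset (Fin 4 × α), C.card ≤ 6 ∧ ∀ e ∈ H, ∃ i, (i, e i) ∈ C :=
  Vale.Agent.Lib.P045.cover_of_checks
    (tbl := Vale.Agent.Lib.P045.D.hdrGet) (htbl := Vale.Agent.Lib.P045.D.hitGet)
    Vale.Agent.Lib.P045.D.allH Vale.Agent.Lib.P045.D.allL
    (Nat.lt_succ_self _) Vale.Agent.Lib.P045.D.rootOK H hν

end Vale.Agent.Results.P045.A_main
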